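import Vale.Agent.P183.R2.H668.KW.Spec

set_option autoImplicit false

namespace Vale.Agent.P183.R2.H2.KW

open Finset Vale.Agent.P183.R2.H668.KW

lemma choose_bd (R j d : ℕ) (hj : j ≤ d) (a : ℝ) (ha : 0 < a) (ha1 : a ≤ 1) :
    ((R.choose j : ℕ) : ℝ) ≤ Real.exp (a * R) * (1 / a) ^ d := by
  rcases Nat.lt_or_ge R j with h | h
  · rw [Nat.choose_eq_zero_of_lt h, Nat.cast_zero]; positivity
  have h1 : a ^ j * (R.choose j : ℝ) ≤ (a + 1) ^ R := by
    rw [add_pow]
    have := Finset.single_le_sum (f := fun m => a ^ m * 1 ^ (R - m) * (R.choose m : ℝ))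
      (fun m _ => by positivity) (Finset.mem_range.2 (Nat.lt_succ_of_le h))
    simpa using this
  have h2 : (a + 1) ^ R ≤ Real.exp (a * R) := by
    calc (a + 1) ^ R ≤ (Real.exp a) ^ R := pow_le_pow_left₀ (by positivity) (Real.add_one_le_exp a) R
      _ = Real.exp (a * R) := by rw [← Real.exp_nat_mul, mul_comm]
  have h3 : (1 : ℝ) ≤ 1 / a := by rw [le_div_iff₀ ha]; linarith
  have h4 : ((R.choose j : ℕ) : ℝ) = (a ^ j * R.choose j) * (1 / a) ^ j := by
    rw [one_div, inv_pow]
    field_simp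
  rw [h4]
  exact mul_le_mul (h1.trans h2) (pow_le_pow_right₀ h3 hj) (by positivity) (by positivity)

lemma choose_pow (t s q : ℕ) (hs : s ≤ q) (ht : 1 ≤ t) : t.choose s ≤ t ^ q :=
  (Nat.choose_le_pow t s).trans (Nat.pow_le_pow_right ht hs)

lemma log_bds (t : ℕ) (ht : 1 ≤ t) :
    1 ≤ √(t : ℝ) ∧ 0 ≤ Real.log t ∧ Real.log t ≤ 2 * √(t : ℝ) ∧
      Real.log t ^ 4 ≤ 4096 * √(t : ℝ) ∧ (t : ℝ) + 1 ≤ Real.exp (2 * √(t : ℝ)) := by
  have ht' : (1 : ℝ) ≤ t := by exact_mod_cast ht
  have hs : 1 ≤ √(t : ℝ) := by rw [Real.one_le_sqrt]; exact ht'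
  have hL : 0 ≤ Real.log t := Real.log_nonneg ht'
  have hsq : √(t : ℝ) ^ 2 = t := Real.sq_sqrt (by positivity)
  refine ⟨hs, hL, ?_, ?_, ?_⟩
  · have h1 : Real.log t = 2 * Real.log √(t : ℝ) := by
      rw [Real.log_sqrt (by positivity)]; ring
    have h2 := Real.log_le_sub_one_of_pos (x := √(t : ℝ)) (by positivity)
    linarith
  · have h1 := Real.log_le_rpow_div (x := (t : ℝ)) (by positivity) (ε := 1 / 8) (by norm_num)
    have h2 : Real.log t ≤ 8 * (t : ℝ) ^ (1 / 8 : ℝ) := by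
      calc Real.log t ≤ _ := h1
        _ = 8 * (t : ℝ) ^ (1 / 8 : ℝ) := by ring
    have h3 : ((t : ℝ) ^ (1 / 8 : ℝ)) ^ 4 = √(t : ℝ) := by
      rw [← Real.rpow_natCast, ← Real.rpow_mul (by positivity), Real.sqrt_eq_rpow]
      norm_num
    calc Real.log t ^ 4 ≤ (8 * (t : ℝ) ^ (1 / 8 : ℝ)) ^ 4 := pow_le_pow_left₀ hL h2 4
      _ = 4096 * √(t : ℝ) := by rw [mul_pow, h3]; norm_num
  · have h1 := Real.add_one_le_exp √(t : ℝ)
    have h2 : Real.exp (2 * √(t : ℝ)) = Real.exp √(t : ℝ) ^ 2 := by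
      rw [← Real.exp_nat_mul]; norm_num
    rw [h2]
    nlinarith

/-- The numerical part in the case of large `δ`. -/
lemma big_case (t δ : ℕ) (ht : 1 ≤ t) (hδ : 1 ≤ δ) (hδt : δ ≤ t) (h2t : (δ : ℝ) ^ 2 ≤ 2 * t)
    (hbig : √(t : ℝ) < δ * Real.log t) :
    ∃ q : ℕ, (1 - (δ : ℝ) ^ 2 / (2 * t)) ^ q * t ≤ ((2 * t / δ : ℕ) : ℝ) ∧
      ((∑ s ∈ range (q + 1), t.choose s * (2 * t / δ).choose (δ + 1 - s) : ℕ) : ℝ) ≤
        Real.exp (16400 * √(t : ℝ)) := by
  obtain ⟨hs, hL, hL2, hL4, -⟩ := log_bds t ht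
  set S := √(t : ℝ) with hS
  set L := Real.log t with hLdef
  have hsq : S ^ 2 = t := Real.sq_sqrt (by positivity)
  have ht' : (1 : ℝ) ≤ t := by exact_mod_cast ht
  have hδ' : (1 : ℝ) ≤ δ := by exact_mod_cast hδ
  have hδt' : (δ : ℝ) ≤ t := by exact_mod_cast hδt
  set b : ℝ := (δ : ℝ) ^ 2 / (2 * t) with hb
  have hb0 : 0 < b := by positivity
  have hb1 : b ≤ 1 := by rw [hb, div_le_one (by positivity)]; exact h2t
  have hlogδ0 : 0 ≤ Real.log δ := Real.log_nonneg hδ'
  have hlogδ : Real.log δ ≤ L := Real.log_le_log (by positivity) hδt'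
  set R : ℕ := 2 * t / δ with hR
  have hRle : (R : ℝ) ≤ 2 * t / δ := by
    have := @Nat.cast_div_le ℝ _ _ _ (2 * t) δ
    push_cast at this
    exact this
  have hRge : (t : ℝ) ≤ δ * R := by
    have h1 := Nat.div_add_mod (2 * t) δ
    have h2 := Nat.mod_lt (2 * t) (show 0 < δ by omega)
    have h3 : t ≤ δ * R := by rw [hR]; omega
    exact_mod_cast h3
  have hbR : b * R ≤ 2 * S := by
    have h1 : b * R ≤ b * (2 * t / δ) := mul_le_mul_of_nonneg_left hRle hb0.le
    have h2 : b * (2 * t / δ) = δ := by rw [hb]; field_simp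
    have h3 : (δ : ℝ) ≤ 2 * S := by
      by_contra h
      push Not at h
      have := mul_lt_mul'' h h (by positivity) (by positivity)
      nlinarith
    linarith
  have hinvb : 1 / b ≤ Real.exp (4 * S / δ) := by
    have h1 : 1 / b ≤ (2 * S / δ) ^ 2 := by
      rw [hb, one_div_div, div_pow, mul_pow, hsq]
      gcongr
      nlinarith
    have h2 : 2 * S / δ ≤ Real.exp (2 * S / δ) := by
      have := Real.add_one_le_exp (2 * S / δ)
      linarith
    calc 1 / b ≤ (2 * S / δ) ^ 2 := h1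
      _ ≤ Real.exp (2 * S / δ) ^ 2 := pow_le_pow_left₀ (by positivity) h2 2
      _ = Real.exp (4 * S / δ) := by rw [← Real.exp_nat_mul]; congr 1; push_cast; ring
  have hinvb' : (1 / b) ^ (δ + 1) ≤ Real.exp (8 * S) := by
    calc (1 / b) ^ (δ + 1) ≤ Real.exp (4 * S / δ) ^ (δ + 1) :=
          pow_le_pow_left₀ (by positivity) hinvb _
      _ = Real.exp ((δ + 1 : ℕ) * (4 * S / δ)) := by rw [← Real.exp_nat_mul]
      _ ≤ Real.exp (8 * S) := by
          apply Real.exp_le_exp.2
          push_cast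
          rw [show ((δ : ℝ) + 1) * (4 * S / δ) = (4 * S * (δ + 1)) / δ by ring,
            div_le_iff₀ (by positivity)]
          nlinarith
  set q : ℕ := ⌈Real.log δ / b⌉₊ with hq
  have hq1 : Real.log δ / b ≤ q := Nat.le_ceil _
  have hq2 : (q : ℝ) ≤ 2 * L ^ 3 + 1 := by
    have h1 : (q : ℝ) < Real.log δ / b + 1 := Nat.ceil_lt_add_one (by positivity)
    have h2 : Real.log δ / b ≤ 2 * L ^ 3 := by
      rw [div_le_iff₀ hb0, hb]
      have h3 : S ^ 2 ≤ (δ * L) ^ 2 := pow_le_pow_left₀ (by positivity) hbig.le 2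
      have h4 : L ≤ 2 * L ^ 3 * ((δ : ℝ) ^ 2 / (2 * t)) := by
        rw [mul_div_assoc', le_div_iff₀ (by positivity)]
        rw [hsq] at h3
        nlinarith [mul_le_mul_of_nonneg_left h3 hL]
      exact hlogδ.trans h4
    linarith
  refine ⟨q, ?_, ?_⟩
  · have h1 : (1 - b) ^ q ≤ Real.exp (-(b * q)) := by
      have h0 : 1 - b ≤ Real.exp (-b) := by
        have := Real.add_one_le_exp (-b); linarith
      calc (1 - b) ^ q ≤ Real.exp (-b) ^ q := pow_le_pow_left₀ (by linarith) h0 q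
        _ = Real.exp (-(b * q)) := by rw [← Real.exp_nat_mul]; congr 1; ring
    have h2 : Real.exp (-(b * q)) ≤ 1 / δ := by
      have h3 : Real.log δ ≤ b * q := by
        rw [div_le_iff₀ hb0] at hq1; linarith
      calc Real.exp (-(b * q)) ≤ Real.exp (-Real.log δ) := Real.exp_le_exp.2 (by linarith)
        _ = 1 / δ := by rw [Real.exp_neg, Real.exp_log (by positivity), one_div]
    calc (1 - b) ^ q * t ≤ (1 / δ) * t := by
          apply mul_le_mul_of_nonneg_right (h1.trans h2) (by positivity)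
      _ = t / δ := by ring
      _ ≤ R := by rw [div_le_iff₀ (by positivity)]; linarith
  · push_cast
    have hterm : ∀ s ∈ range (q + 1), ((t.choose s : ℕ) : ℝ) * ((R.choose (δ + 1 - s) : ℕ) : ℝ) ≤
        Real.exp (q * L) * Real.exp (10 * S) := by
      intro s hs'
      have hsq' : s ≤ q := Nat.lt_succ_iff.1 (Finset.mem_range.1 hs')
      have h1 : ((t.choose s : ℕ) : ℝ) ≤ Real.exp (q * L) := by
        have h2 : ((t.choose s : ℕ) : ℝ) ≤ (t : ℝ) ^ q := by
          exact_mod_cast choose_pow t s q hsq' ht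
        have h3 : (t : ℝ) ^ q = Real.exp (q * L) := by
          rw [Real.exp_nat_mul, hLdef, Real.exp_log (by positivity)]
        linarith
      have h4 : ((R.choose (δ + 1 - s) : ℕ) : ℝ) ≤ Real.exp (10 * S) := by
        calc ((R.choose (δ + 1 - s) : ℕ) : ℝ) ≤ Real.exp (b * R) * (1 / b) ^ (δ + 1) :=
              choose_bd R _ (δ + 1) (Nat.sub_le _ _) b hb0 hb1
          _ ≤ Real.exp (2 * S) * Real.exp (8 * S) :=
              mul_le_mul (Real.exp_le_exp.2 hbR) hinvb' (by positivity) (by positivity)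
          _ = Real.exp (10 * S) := by rw [← Real.exp_add]; congr 1; ring
      exact mul_le_mul h1 h4 (by positivity) (by positivity)
    calc ∑ s ∈ range (q + 1), ((t.choose s : ℕ) : ℝ) * ((R.choose (δ + 1 - s) : ℕ) : ℝ)
        ≤ ∑ s ∈ range (q + 1), Real.exp (q * L) * Real.exp (10 * S) := Finset.sum_le_sum hterm
      _ = (q + 1) * (Real.exp (q * L) * Real.exp (10 * S)) := by
          rw [Finset.sum_const, card_range, nsmul_eq_mul]; push_cast; ring
      _ ≤ Real.exp q * (Real.exp (q * L) * Real.exp (10 * S)) :=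
          mul_le_mul_of_nonneg_right (Real.add_one_le_exp _) (by positivity)
      _ = Real.exp (q + (q * L + 10 * S)) := by rw [← Real.exp_add, ← Real.exp_add]
      _ ≤ Real.exp (16400 * S) := by
          apply Real.exp_le_exp.2
          have hL3 : L ^ 3 ≤ 1 + L ^ 4 := by
            rcases le_total L 1 with h | h
            · have : L ^ 3 ≤ 1 := pow_le_one₀ hL h
              have : 0 ≤ L ^ 4 := by positivity
              linarith
            · have : L ^ 3 ≤ L ^ 4 := pow_le_pow_right₀ h (by norm_num)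
              linarith
          have h5 : (q : ℝ) * (1 + L) ≤ (2 * L ^ 3 + 1) * (1 + L) :=
            mul_le_mul_of_nonneg_right hq2 (by linarith)
          nlinarith

lemma cancel_aux (x t : ℝ) (ht : 0 < t) : x / (2 * t) * t = x / 2 := by field_simp

/-- Few sets of each size. -/
lemma card_le (h1 : StA1) (h2 : StA2) {V : Type} [Fintype V] [DecidableEq V] (G : SimpleGraph V)
    [DecidableRel G.Adj] (hG : C4Free G) (T : Finset V) (hT : ∀ x y, G.Adj x y → x ∈ T)
    (hne : T.Nonempty) (d : ℕ) (hd : ∀ x ∈ T, d ≤ (univ.filter (fun y => G.Adj x y)).card + 1)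
    [DecidableRel (fun x y : V => x ≠ y ∧ ∃ w, G.Adj w x ∧ G.Adj w y)] :
    (((T.powersetCard d).filter (fun I => ∀ x ∈ I, ∀ y ∈ I, x ≠ y →
      ¬ (fun x y : V => x ≠ y ∧ ∃ w, G.Adj w x ∧ G.Adj w y) x y)).card : ℝ) ≤
      Real.exp (16400 * √(T.card : ℝ)) := by
  have ht : 1 ≤ T.card := hne.card_pos
  obtain ⟨hs, hL, hL2, hL4, -⟩ := log_bds T.card ht
  have ht' : (1 : ℝ) ≤ T.card := by exact_mod_cast ht
  rcases Nat.lt_or_ge T.card d with hdt | hdt
  · rw [Finset.powersetCard_eq_empty.2 hdt]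
    simp only [filter_empty, card_empty, Nat.cast_zero]
    positivity
  set δ : ℕ := d - 1 with hδ
  by_cases hbig : √(T.card : ℝ) < δ * Real.log T.card
  · -- large sets
    have hδ1 : 1 ≤ δ := by
      by_contra h
      have : δ = 0 := by omega
      rw [this, Nat.cast_zero, zero_mul] at hbig
      linarith
    have hdδ : d = δ + 1 := by omega
    have hδt : δ ≤ T.card := by omega
    have hdeg : ∀ x ∈ T, δ ≤ (univ.filter (fun y => G.Adj x y)).card := fun x hx => by
      have := hd x hx; omega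
    have h2t : (δ : ℝ) ^ 2 ≤ 2 * T.card := by
      rcases Nat.lt_or_ge δ 2 with h | h
      · have : δ = 1 := by omega
        rw [this]; norm_num; linarith
      · obtain ⟨x, -, hx⟩ := h2 V G hG T hT δ hδ1 hdeg T (Finset.Subset.refl T)
          (Nat.mul_le_mul_right _ h) hne
        have h5 : (δ : ℝ) ^ 2 / (2 * T.card) * T.card ≤ T.card :=
          by
          refine le_trans hx ?_
          apply Nat.cast_le.2
          apply Finset.card_le_card
          intro z hz
          simp only [Finset.mem_filter] at hz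
          exact hz.1
        have h4 : (δ : ℝ) ^ 2 / (2 * T.card) * T.card = (δ : ℝ) ^ 2 / 2 := cancel_aux _ _ (by linarith)
        rw [h4] at h5
        linarith
    obtain ⟨q, hq, hsum⟩ := big_case T.card δ ht hδ1 hδt h2t hbig
    have hb0 : 0 ≤ (δ : ℝ) ^ 2 / (2 * T.card) := div_nonneg (sq_nonneg _) (by linarith)
    have hb1 : (δ : ℝ) ^ 2 / (2 * T.card) ≤ 1 := (div_le_one (by linarith)).2 h2t
    have key := h1 V (fun x y : V => x ≠ y ∧ ∃ w, G.Adj w x ∧ G.Adj w y)
      (fun x y h => ⟨h.1.symm, h.2.imp fun w hw => ⟨hw.2, hw.1⟩⟩) ((δ : ℝ) ^ 2 / (2 * T.card))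
      (2 * T.card / δ) hb0 hb1 T (fun B' hB' hR => by
        have h5 : 2 * T.card ≤ δ * B'.card := by
          have h7 := (Nat.div_lt_iff_lt_mul (show 0 < δ by omega)).1 hR
          calc 2 * T.card ≤ B'.card * δ := h7.le
            _ = δ * B'.card := mul_comm _ _
        have h6 : B'.Nonempty := Finset.card_pos.1 (lt_of_le_of_lt (Nat.zero_le _) hR)
        obtain ⟨x, hx, hx'⟩ := h2 V G hG T hT δ hδ1 hdeg B' hB' h5 h6
        refine ⟨x, hx, hx'.trans (le_of_eq ?_)⟩
        congr!) q d hq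
    rw [hdδ] at key ⊢
    refine le_trans ?_ hsum
    exact_mod_cast key
  · -- small sets
    push Not at hbig
    have h3 : (((T.powersetCard d).filter (fun I => ∀ x ∈ I, ∀ y ∈ I, x ≠ y →
      ¬ (fun x y : V => x ≠ y ∧ ∃ w, G.Adj w x ∧ G.Adj w y) x y)).card : ℝ) ≤
        (T.card : ℝ) ^ d := by
      have h4 := (Finset.card_filter_le (T.powersetCard d) (fun I => ∀ x ∈ I, ∀ y ∈ I, x ≠ y →
        ¬ (fun x y : V => x ≠ y ∧ ∃ w, G.Adj w x ∧ G.Adj w y) x y)).trans
          ((Finset.card_powersetCard d T).le.trans (Nat.choose_le_pow _ _))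
      exact_mod_cast h4
    refine h3.trans ?_
    have h5 : (T.card : ℝ) ^ d = Real.exp (d * Real.log T.card) := by
      rw [Real.exp_nat_mul, Real.exp_log (by positivity)]
    rw [h5]
    apply Real.exp_le_exp.2
    have h6 : (d : ℝ) ≤ δ + 1 := by
      have : d ≤ δ + 1 := by omega
      exact_mod_cast this
    nlinarith [mul_le_mul_of_nonneg_right h6 hL]

theorem rowA (h1 : StA1) (h2 : StA2) : StA := by
  refine ⟨16402, by norm_num, fun V hV G hG T hT => ?_⟩
  classical
  have := Fintype.ofFinite V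
  rw [← Real.sqrt_eq_rpow]
  rcases T.eq_empty_or_nonempty with rfl | hne
  · have hsub : nbhds G ∅ ⊆ {∅} := by
      intro I hI
      exact Finset.subset_empty.1 hI.1
    have h3 : (nbhds G ∅).ncard ≤ 1 := by
      calc (nbhds G ∅).ncard ≤ ({∅} : Set (Finset V)).ncard := Set.ncard_le_ncard hsub
        _ = 1 := Set.ncard_singleton _
    have h4 : ((nbhds G ∅).ncard : ℝ) ≤ 1 := by exact_mod_cast h3
    simpa using h4
  have ht : 1 ≤ T.card := hne.card_pos
  obtain ⟨hs, hL, hL2, hL4, ht1⟩ := log_bds T.card ht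
  let F : ℕ → Finset (Finset V) := fun d =>
    if ∀ x ∈ T, d ≤ (univ.filter (fun y => G.Adj x y)).card + 1 then
      (T.powersetCard d).filter (fun I => ∀ x ∈ I, ∀ y ∈ I, x ≠ y →
        ¬ (fun x y : V => x ≠ y ∧ ∃ w, G.Adj w x ∧ G.Adj w y) x y) else ∅
  have hF : ∀ d, ((F d).card : ℝ) ≤ Real.exp (16400 * √(T.card : ℝ)) := by
    intro d
    by_cases hd : ∀ x ∈ T, d ≤ (univ.filter (fun y => G.Adj x y)).card + 1
    · simp only [F]
      rw [if_pos hd]
      exact card_le h1 h2 G hG T hT hne d hd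
    · simp only [F]
      rw [if_neg hd, card_empty, Nat.cast_zero]
      positivity
  have hsub : nbhds G T ⊆ ↑((range (T.card + 1)).biUnion F) := by
    intro I hI
    obtain ⟨hIT, hIc, hI3⟩ := hI
    rw [Finset.mem_coe, Finset.mem_biUnion]
    refine ⟨I.card, Finset.mem_range.2 (Nat.lt_succ_of_le (Finset.card_le_card hIT)), ?_⟩
    have hd : ∀ x ∈ T, I.card ≤ (univ.filter (fun y => G.Adj x y)).card + 1 := by
      intro x hx
      have h3 := hIc x hx
      have h4 : {y | G.Adj x y}.ncard = (univ.filter (fun y => G.Adj x y)).card := by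
        rw [← Set.ncard_coe_finset]
        congr 1
        ext y; simp
      rwa [h4] at h3
    simp only [F]
    rw [if_pos hd, Finset.mem_filter, Finset.mem_powersetCard]
    refine ⟨⟨hIT, rfl⟩, fun x hx y hy hxy h => hI3 x hx y hy hxy h.2⟩
  have hcard : ((nbhds G T).ncard : ℝ) ≤ (T.card + 1) * Real.exp (16400 * √(T.card : ℝ)) := by
    have h3 : (nbhds G T).ncard ≤ ((range (T.card + 1)).biUnion F).card := by
      rw [← Set.ncard_coe_finset]
      exact Set.ncard_le_ncard hsub (Finset.finite_toSet _)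
    have h4 : ((range (T.card + 1)).biUnion F).card ≤ ∑ d ∈ range (T.card + 1), (F d).card :=
      Finset.card_biUnion_le
    have h5 : ((∑ d ∈ range (T.card + 1), (F d).card : ℕ) : ℝ) ≤
        (T.card + 1) * Real.exp (16400 * √(T.card : ℝ)) := by
      push_cast
      calc ∑ d ∈ range (T.card + 1), ((F d).card : ℝ)
          ≤ ∑ d ∈ range (T.card + 1), Real.exp (16400 * √(T.card : ℝ)) :=
            Finset.sum_le_sum fun d _ => hF d
        _ = (T.card + 1) * Real.exp (16400 * √(T.card : ℝ)) := by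
            rw [Finset.sum_const, card_range, nsmul_eq_mul]; push_cast; ring
    calc ((nbhds G T).ncard : ℝ) ≤ ((∑ d ∈ range (T.card + 1), (F d).card : ℕ) : ℝ) := by
          exact_mod_cast h3.trans h4
      _ ≤ _ := h5
  refine hcard.trans ?_
  calc ((T.card : ℝ) + 1) * Real.exp (16400 * √(T.card : ℝ))
      ≤ Real.exp (2 * √(T.card : ℝ)) * Real.exp (16400 * √(T.card : ℝ)) :=
        mul_le_mul_of_nonneg_right ht1 (by positivity)
    _ = Real.exp (16402 * √(T.card : ℝ)) := by rw [← Real.exp_add]; congr 1; ring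

end Vale.Agent.P183.R2.H2.KW
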